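import Vale.Agent.P073.RT.H339.DR
import Vale.Agent.P073.PA260.SpecDisc

/-!
# P073 / RT / H339: row T2, unconditional
-/

namespace Vale.Agent.P073.RT.H339

/-- **Row T2** -/
theorem specDR : Vale.Agent.P073.RT.SpecDR := specDR_of _root_.P073.PA260.specDisc

end Vale.Agent.P073.RT.H339
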