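import Vale.Agent.P073.RT.Rows
import Vale.Agent.P073.PA285.HColl

/-!
# P073 / RT / H339: PL collar of the boundary of a square
-/

open Set Metric Topology Filter

namespace Vale.Agent.P073.RT.H339

open _root_.P073 _root_.P073.PA691 _root_.P073.PR720 Vale.Agent.P073.St
open Vale.Agent.P073.RT

/-- the profile -/
noncomputable def prof (r b s t : ℝ) : ℝ := r * s - b * ((|s + t| - |s - t|) / 2)

theorem prof_one {r b t : ℝ} (ht : |t| ≤ 1) : prof r b 1 t = r - b * t := by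
  obtain ⟨h1, h2⟩ := abs_le.1 ht
  unfold prof
  rw [abs_of_nonneg (by linarith : 0 ≤ 1 + t), abs_of_nonneg (by linarith : 0 ≤ 1 - t)]
  ring

theorem prof_neg {r b s t : ℝ} : prof r b (-s) t = - prof r b s t := by
  unfold prof
  rw [show -s + t = -(s - t) by ring, show -s - t = -(s + t) by ring, abs_neg, abs_neg]
  ring

theorem prof_diff {r b s s' t : ℝ} (hb : 0 ≤ b) (h : s ≤ s') :
    (r - b) * (s' - s) ≤ prof r b s' t - prof r b s t := by
  unfold prof
  have h1 : |s' + t| - |s + t| ≤ s' - s := by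
    have h2 : |s' + t| - |s + t| ≤ |s' + t - (s + t)| := abs_sub_abs_le_abs_sub _ _
    rw [show s' + t - (s + t) = s' - s by ring, abs_of_nonneg (by linarith : 0 ≤ s' - s)] at h2
    exact h2
  have h3 : |s - t| - |s' - t| ≤ s' - s := by
    have h2 : |s - t| - |s' - t| ≤ |s - t - (s' - t)| := abs_sub_abs_le_abs_sub _ _
    rw [show s - t - (s' - t) = -(s' - s) by ring, abs_neg,
      abs_of_nonneg (by linarith : 0 ≤ s' - s)] at h2
    exact h2
  nlinarith

theorem prof_strictMono {r b : ℝ} (hb : 0 ≤ b) (hr : b < r) (t : ℝ) :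
    StrictMono (fun s => prof r b s t) := by
  intro s s' h
  have := prof_diff (r := r) (t := t) hb h.le
  have h2 : 0 < (r - b) * (s' - s) := mul_pos (by linarith) (by linarith)
  show prof r b s t < prof r b s' t
  linarith

theorem prof_lt {r b s t : ℝ} (hb : 0 ≤ b) (hr : b < r) (ht : |t| ≤ 1) (hs : |s| < 1) :
    |prof r b s t| < r - b * t := by
  obtain ⟨h1, h2⟩ := abs_lt.1 hs
  have h3 := prof_strictMono hb hr t h1
  have h4 := prof_strictMono hb hr t h2
  simp only [prof_neg, prof_one ht] at h3 h4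
  rw [abs_lt]
  exact ⟨h3, h4⟩

theorem prof_le {r b s t : ℝ} (hb : 0 ≤ b) (hr : b < r) (ht : |t| ≤ 1) (hs : |s| ≤ 1) :
    |prof r b s t| ≤ r - b * t := by
  obtain ⟨h1, h2⟩ := abs_le.1 hs
  have h3 := (prof_strictMono hb hr t).monotone h1
  have h4 := (prof_strictMono hb hr t).monotone h2
  simp only [prof_neg, prof_one ht] at h3 h4
  rw [abs_le]
  exact ⟨h3, h4⟩

theorem prof_eq {r b s t : ℝ} (hb : 0 ≤ b) (hr : b < r) (ht : |t| ≤ 1) (hs : |s| = 1) :
    |prof r b s t| = r - b * t := by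
  have h0 : 0 ≤ r - b * t := by nlinarith [(abs_le.1 ht).2]
  rcases (abs_eq zero_le_one).1 hs with rfl | rfl
  · rw [prof_one ht, abs_of_nonneg h0]
  · rw [prof_neg, prof_one ht, abs_neg, abs_of_nonneg h0]

theorem prof_continuous (r b : ℝ) : Continuous (fun p : ℝ × ℝ => prof r b p.1 p.2) := by
  unfold prof
  fun_prop

theorem prof_surj {r b t ρ y : ℝ} (_hb : 0 ≤ b) (_hr : b < r) (ht : |t| ≤ 1)
    (hρ : ρ = r - b * t) (hy : |y| ≤ ρ) : ∃ s, |s| ≤ 1 ∧ prof r b s t = y := by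
  have hc : ContinuousOn (fun s => prof r b s t) (Icc (-1) 1) :=
    ((prof_continuous r b).comp (continuous_id.prodMk continuous_const)).continuousOn
  have h1 := intermediate_value_Icc (by norm_num : (-1:ℝ) ≤ 1) hc
  simp only [prof_neg, prof_one ht] at h1
  rw [hρ] at hy
  obtain ⟨s, hs, hs'⟩ := h1 (abs_le.1 hy)
  exact ⟨s, abs_le.2 hs, hs'⟩

/-- the parametrisation of the annulus -/
noncomputable def annP (c : V) (k : Fin 3) (r a b : ℝ) (p : P2 × ℝ × ℝ) : V :=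
  Fin.insertNth (α := fun _ => ℝ) k (c k + a * p.2.1)
    (fun j => c (k.succAbove j) + prof r b (p.1 j) p.2.2)

theorem annP_same (c : V) (k : Fin 3) (r a b : ℝ) (p : P2 × ℝ × ℝ) :
    annP c k r a b p k = c k + a * p.2.1 := by
  unfold annP
  rw [Fin.insertNth_apply_same]

theorem annP_succ (c : V) (k : Fin 3) (r a b : ℝ) (p : P2 × ℝ × ℝ) (j : Fin 2) :
    annP c k r a b p (k.succAbove j) = c (k.succAbove j) + prof r b (p.1 j) p.2.2 := by
  unfold annP
  rw [Fin.insertNth_apply_succAbove]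

/-- the radius -/
noncomputable def rad (c : V) (k : Fin 3) (x : V) : ℝ :=
  ‖fun j : Fin 2 => x (k.succAbove j) - c (k.succAbove j)‖

theorem rad_continuous (c : V) (k : Fin 3) : Continuous (rad c k) := by
  unfold rad
  refine continuous_norm.comp (continuous_pi fun j => ?_)
  exact (continuous_apply _).sub continuous_const

theorem rad_le_iff {c : V} {k : Fin 3} {x : V} {ρ : ℝ} (hρ : 0 ≤ ρ) :
    rad c k x ≤ ρ ↔ ∀ l, l ≠ k → |x l - c l| ≤ ρ := by
  unfold rad
  rw [pi_norm_le_iff_of_nonneg hρ]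
  constructor
  · intro h l hl
    obtain ⟨j, rfl⟩ := Fin.exists_succAbove_eq hl
    exact h j
  · intro h j
    exact h _ (Fin.succAbove_ne k j)

theorem rad_lt_iff {c : V} {k : Fin 3} {x : V} {ρ : ℝ} (hρ : 0 < ρ) :
    rad c k x < ρ ↔ ∀ l, l ≠ k → |x l - c l| < ρ := by
  unfold rad
  rw [pi_norm_lt_iff hρ]
  constructor
  · intro h l hl
    obtain ⟨j, rfl⟩ := Fin.exists_succAbove_eq hl
    exact h j
  · intro h j
    exact h _ (Fin.succAbove_ne k j)

theorem le_rad_iff {c : V} {k : Fin 3} {x : V} {ρ : ℝ} (hρ : 0 < ρ) :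
    ρ ≤ rad c k x ↔ ∃ l, l ≠ k ∧ ρ ≤ |x l - c l| := by
  rw [← not_lt, rad_lt_iff hρ]
  push Not
  rfl

theorem exists_norm_eq {θ : P2} (h : ‖θ‖ = 1) : ∃ j, |θ j| = 1 := by
  by_contra hne
  have h1 : ∀ j, ‖θ j‖ < 1 := fun j =>
    lt_of_le_of_ne ((norm_le_pi_norm θ j).trans h.le) fun hj => hne ⟨j, hj⟩
  have := (pi_norm_lt_iff one_pos).2 h1
  linarith

theorem rad_annP {c : V} {k : Fin 3} {r a b : ℝ} (hb : 0 ≤ b) (hr : b < r) {p : P2 × ℝ × ℝ}
    (hp : p.1 ∈ S1) (ht : |p.2.2| ≤ 1) : rad c k (annP c k r a b p) = r - b * p.2.2 := by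
  have hθ : ‖p.1‖ = 1 := mem_sphere_zero_iff_norm.1 hp
  have h0 : 0 ≤ r - b * p.2.2 := by nlinarith [(abs_le.1 ht).2]
  have hv : (fun j : Fin 2 => annP c k r a b p (k.succAbove j) - c (k.succAbove j)) =
      fun j => prof r b (p.1 j) p.2.2 := by
    funext j
    rw [annP_succ]; ring
  unfold rad
  rw [hv]
  apply le_antisymm
  · rw [pi_norm_le_iff_of_nonneg h0]
    intro j
    exact prof_le hb hr ht ((norm_le_pi_norm p.1 j).trans hθ.le)
  · obtain ⟨j, hj⟩ := exists_norm_eq hθ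
    rw [← prof_eq hb hr ht hj]
    exact norm_le_pi_norm (fun j => prof r b (p.1 j) p.2.2) j

/-- the parameter domain -/
abbrev PD : Set (P2 × ℝ × ℝ) := S1 ×ˢ (Icc (-1:ℝ) 1 ×ˢ Icc (-1:ℝ) 1)

theorem annP_injOn (c : V) (k : Fin 3) {r a b : ℝ} (ha : 0 < a) (hb : 0 < b) (hr : b < r) :
    InjOn (annP c k r a b) PD := by
  rintro ⟨θ, τ, t⟩ ⟨hθ, hτ, ht⟩ ⟨θ', τ', t'⟩ ⟨hθ', hτ', ht'⟩ h
  have h1 := congrFun h k
  rw [annP_same, annP_same] at h1
  have h2 : τ = τ' := mul_left_cancel₀ ha.ne' (add_left_cancel h1)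
  have h3 := congrArg (rad c k) h
  rw [rad_annP hb.le hr hθ (abs_le.2 ht), rad_annP hb.le hr hθ' (abs_le.2 ht')] at h3
  have h4 : t = t' := by
    have : b * t = b * t' := by simpa using h3
    exact mul_left_cancel₀ hb.ne' this
  subst h4
  have h5 : θ = θ' := by
    funext j
    have h6 := congrFun h (k.succAbove j)
    rw [annP_succ, annP_succ] at h6
    exact (prof_strictMono hb.le hr t).injective (add_left_cancel h6)
  rw [h5, h2]

/-- images of products -/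
theorem annP_image (c : V) (k : Fin 3) {r a b : ℝ} (ha : 0 < a) (hb : 0 < b) (hr : b < r)
    {T U : Set ℝ} (hU : U ⊆ Icc (-1) 1) :
    annP c k r a b '' (S1 ×ˢ (T ×ˢ U)) = {x | (x k - c k) / a ∈ T ∧ (r - rad c k x) / b ∈ U} := by
  ext x
  constructor
  · rintro ⟨⟨θ, τ, t⟩, ⟨hθ, hτ, ht⟩, rfl⟩
    constructor
    · rw [annP_same]
      have : (c k + a * τ - c k) / a = τ := by field_simp; ring
      rw [this]; exact hτ
    · rw [rad_annP hb.le hr hθ (abs_le.2 (hU ht))]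
      have : (r - (r - b * t)) / b = t := by field_simp; ring
      rw [this]; exact ht
  · rintro ⟨hT, hUx⟩
    set t := (r - rad c k x) / b with htdef
    have ht : |t| ≤ 1 := abs_le.2 (hU hUx)
    have hρ : rad c k x = r - b * t := by rw [htdef]; field_simp; ring
    have h0 : 0 < r - b * t := by nlinarith [(abs_le.1 ht).2]
    have h1 : ∀ j : Fin 2, ∃ s, |s| ≤ 1 ∧ prof r b s t = x (k.succAbove j) - c (k.succAbove j) :=
      fun j => prof_surj hb.le hr ht hρ
        (norm_le_pi_norm (fun j : Fin 2 => x (k.succAbove j) - c (k.succAbove j)) j)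
    choose θ hθ1 hθ2 using h1
    have hθ : θ ∈ S1 := by
      rw [mem_sphere_zero_iff_norm]
      apply le_antisymm
      · rw [pi_norm_le_iff_of_nonneg zero_le_one]; exact hθ1
      · by_contra hlt
        rw [not_le, pi_norm_lt_iff one_pos] at hlt
        have : rad c k x < r - b * t := by
          unfold rad
          rw [pi_norm_lt_iff h0]
          intro j
          rw [← hθ2 j]
          exact prof_lt hb.le hr ht (hlt j)
        linarith
    refine ⟨(θ, (x k - c k) / a, t), ⟨hθ, hT, hUx⟩, ?_⟩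
    funext l
    rcases Fin.eq_self_or_eq_succAbove k l with rfl | ⟨j, rfl⟩
    · rw [annP_same]
      show c l + a * ((x l - c l) / a) = x l
      field_simp; ring
    · rw [annP_succ]
      show c _ + prof r b (θ j) t = _
      rw [hθ2 j]; ring

theorem annP_continuous (c : V) (k : Fin 3) (r a b : ℝ) : Continuous (annP c k r a b) := by
  refine continuous_pi fun l => ?_
  rcases Fin.eq_self_or_eq_succAbove k l with rfl | ⟨j, rfl⟩
  · simp only [annP_same]
    fun_prop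
  · simp only [annP_succ]
    have h := (prof_continuous r b).comp
      (((continuous_apply j).comp continuous_fst).prodMk (continuous_snd.comp continuous_snd) :
        Continuous fun p : P2 × ℝ × ℝ => (p.1 j, p.2.2))
    exact continuous_const.add h

theorem conicalOn_abs {E : Type*} [NormedAddCommGroup E] [NormedSpace ℝ E] {X : Set E}
    {u : E → ℝ} (h : ConicalOn u X) (hc : ContinuousOn u X) : ConicalOn (fun y => |u y|) X := by
  have := h.rmax h.neg hc hc.neg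
  exact this

theorem annP_conical (c : V) (k : Fin 3) (r a b : ℝ) {X : Set (P2 × ℝ × ℝ)}
    (hX : ConicalSet X) : ConicalOn (annP c k r a b) X := by
  intro x hx
  refine conicalWithinAt_pi (hX x hx) fun l => ?_
  rcases Fin.eq_self_or_eq_succAbove k l with rfl | ⟨j, rfl⟩
  · simp only [annP_same]
    let L : P2 × ℝ × ℝ →ₗ[ℝ] ℝ := (LinearMap.fst ℝ ℝ ℝ).comp (LinearMap.snd ℝ P2 (ℝ × ℝ))
    have h1 : ConicalOn (fun p : P2 × ℝ × ℝ => a • L p) X := (conicalOn_linear L hX).const_smul a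
    exact ((conicalOn_const (c l) hX).add h1) x hx
  · simp only [annP_succ]
    let L1 : P2 × ℝ × ℝ →ₗ[ℝ] ℝ := (LinearMap.proj j).comp (LinearMap.fst ℝ P2 (ℝ × ℝ))
    let L2 : P2 × ℝ × ℝ →ₗ[ℝ] ℝ := (LinearMap.snd ℝ ℝ ℝ).comp (LinearMap.snd ℝ P2 (ℝ × ℝ))
    have c1 : Continuous (fun p : P2 × ℝ × ℝ => p.1 j) := (continuous_apply j).comp continuous_fst
    have c2 : Continuous (fun p : P2 × ℝ × ℝ => p.2.2) := continuous_snd.comp continuous_snd
    have h1 : ConicalOn (fun p : P2 × ℝ × ℝ => p.1 j) X := conicalOn_linear L1 hX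
    have h2 : ConicalOn (fun p : P2 × ℝ × ℝ => p.2.2) X := conicalOn_linear L2 hX
    have h3 := conicalOn_abs (h1.add h2) (c1.add c2).continuousOn
    have h4 := conicalOn_abs (h1.sub h2) (c1.sub c2).continuousOn
    have h5 := ((conicalOn_const (c (k.succAbove j)) hX).add
      ((h1.const_smul r).sub (((h3.sub h4).const_smul (1/2)).const_smul b))) x hx
    have h6 : (fun p : P2 × ℝ × ℝ => c (k.succAbove j) + (r • p.1 j -
        b • ((1/2 : ℝ) • (|p.1 j + p.2.2| - |p.1 j - p.2.2|)))) =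
        fun p => c (k.succAbove j) + prof r b (p.1 j) p.2.2 := by
      funext p
      unfold prof
      simp only [smul_eq_mul]
      ring
    rw [← h6]
    exact h5

theorem conicalSet_PD : ConicalSet PD :=
  PA285.conSet_prod (conicalSet_sphere_pi 2)
    (PA285.conSet_prod (convex_Icc _ _).conicalSet (convex_Icc _ _).conicalSet)

theorem isCompact_PD : IsCompact PD :=
  (isCompact_sphere _ _).prod (isCompact_Icc.prod isCompact_Icc)

/-- open subsets of the source have open images -/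
theorem isOpen_image_homeo {Ω Λ : Set V} {g : V → V} (hΛ : IsOpen Λ) (hg : IsHomeo Ω Λ g)
    {U : Set V} (hU : IsOpen U) (hUΩ : U ⊆ Ω) : IsOpen (g '' U) := by
  obtain ⟨h, ⟨h1, h2⟩, -, hc⟩ := hg
  have : g '' U = Λ ∩ h ⁻¹' U := by
    ext y
    constructor
    · rintro ⟨x, hx, rfl⟩
      exact ⟨(h1 x (hUΩ hx)).1, by show h (g x) ∈ U; rw [(h1 x (hUΩ hx)).2]; exact hx⟩
    · rintro ⟨hy, hyU⟩
      exact ⟨h y, hyU, (h2 y hy).2⟩
  rw [this]
  exact hc.isOpen_inter_preimage hΛ hU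

/-- **the collar of `g` of the boundary of the square** -/
theorem exists_annK {Ω Λ K : Set V} {g : V → V} (c : V) (k : Fin 3) {r a b : ℝ}
    (hΛ : IsOpen Λ) (hK : IsOpen (Ω \ K)) (hg : St.IsHomeo Ω Λ g)
    (hcon : ∀ x ∈ Ω \ K, ConicalWithinAt g Ω x) (ha : 0 < a) (hb : 0 < b) (hr : b < r)
    (hsub : ∀ x : V, |x k - c k| ≤ a → (∀ l, l ≠ k → |x l - c l| ≤ r + b) →
      (∃ l, l ≠ k ∧ r - b ≤ |x l - c l|) → x ∈ Ω \ K) :
    ∃ (N : Set V) (A : ConHomeo (S1 ×ˢ (Icc (-1:ℝ) 1 ×ˢ Icc (-1:ℝ) 1)) N),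
      (∀ p, A.toFun p = g (annP c k r a b p)) ∧
      (∀ p ∈ S1 ×ˢ (Icc (-1:ℝ) 1 ×ˢ Icc (-1:ℝ) 1), annP c k r a b p ∈ Ω \ K) ∧
      N = g '' {x | |x k - c k| ≤ a ∧ (∀ l, l ≠ k → |x l - c l| ≤ r + b) ∧
        ∃ l, l ≠ k ∧ r - b ≤ |x l - c l|} ∧
      IsOpen (A.toFun '' (S1 ×ˢ (Ioo (-1:ℝ) 1 ×ˢ Ioo (-1:ℝ) 1))) ∧
      (∀ θ ∈ S1, ∀ τ ∈ Icc (-1:ℝ) 1, ∀ t ∈ Icc (-1:ℝ) 1,
        |annP c k r a b (θ, τ, t) k - c k| ≤ a ∧
        rad c k (annP c k r a b (θ, τ, t)) = r - b * t) ∧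
      A.toFun '' (S1 ×ˢ ({0} ×ˢ {0})) = g '' {x ∈ dsk c k r | ∃ l, l ≠ k ∧ |x l - c l| = r} ∧
      A.toFun '' (S1 ×ˢ (Ioo (-1:ℝ) 1 ×ˢ {0})) = g '' {x | |x k - c k| < a ∧
        (∀ l, l ≠ k → |x l - c l| ≤ r) ∧ ∃ l, l ≠ k ∧ |x l - c l| = r} := by
  have hr0 : 0 < r := hb.trans hr
  have hrb : 0 < r - b := by linarith
  have habs : ∀ {x : V}, (x k - c k) / a ∈ Icc (-1:ℝ) 1 ↔ |x k - c k| ≤ a := by
    intro x
    rw [mem_Icc, ← abs_le, abs_div, abs_of_pos ha, div_le_one ha]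
  have habs' : ∀ {x : V}, (x k - c k) / a ∈ Ioo (-1:ℝ) 1 ↔ |x k - c k| < a := by
    intro x
    rw [mem_Ioo, ← abs_lt, abs_div, abs_of_pos ha, div_lt_one ha]
  have hrad : ∀ {x : V}, (r - rad c k x) / b ∈ Icc (-1:ℝ) 1 ↔
      (∀ l, l ≠ k → |x l - c l| ≤ r + b) ∧ ∃ l, l ≠ k ∧ r - b ≤ |x l - c l| := by
    intro x
    rw [mem_Icc, ← rad_le_iff (by linarith), ← le_rad_iff hrb, le_div_iff₀ hb, div_le_iff₀ hb]
    constructor
    · rintro ⟨h1, h2⟩; exact ⟨by linarith, by linarith⟩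
    · rintro ⟨h1, h2⟩; exact ⟨by linarith, by linarith⟩
  have hrad0 : ∀ {x : V}, (r - rad c k x) / b ∈ ({0} : Set ℝ) ↔
      (∀ l, l ≠ k → |x l - c l| ≤ r) ∧ ∃ l, l ≠ k ∧ |x l - c l| = r := by
    intro x
    rw [mem_singleton_iff, div_eq_zero_iff, or_iff_left hb.ne']
    constructor
    · intro h
      have h1 : rad c k x = r := by linarith
      have h2 := (rad_le_iff (c := c) (k := k) (x := x) hr0.le).1 h1.le
      obtain ⟨l, hl, hl'⟩ := (le_rad_iff (c := c) (k := k) (x := x) hr0).1 h1.ge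
      exact ⟨h2, l, hl, le_antisymm (h2 l hl) hl'⟩
    · rintro ⟨h1, l, hl, hl'⟩
      have h2 := (rad_le_iff hr0.le).2 h1
      have h3 := (le_rad_iff (c := c) (k := k) (x := x) hr0).2 ⟨l, hl, hl'.ge⟩
      linarith
  have himg : annP c k r a b '' PD = {x | |x k - c k| ≤ a ∧ (∀ l, l ≠ k → |x l - c l| ≤ r + b) ∧
        ∃ l, l ≠ k ∧ r - b ≤ |x l - c l|} := by
    rw [annP_image c k ha hb hr Subset.rfl]
    ext x
    show _ ∧ _ ↔ _ ∧ _
    rw [habs, hrad]
  have hmaps : MapsTo (annP c k r a b) PD (Ω \ K) := by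
    intro p hp
    have : annP c k r a b p ∈ annP c k r a b '' PD := mem_image_of_mem _ hp
    rw [himg] at this
    exact hsub _ this.1 this.2.1 this.2.2
  have hgc : ContinuousOn g Ω := hg.choose_spec.2.1
  have hginj : InjOn g Ω := by
    obtain ⟨h, ⟨h1, -⟩, -⟩ := hg
    intro x hx y hy hxy
    rw [← (h1 x hx).2, hxy, (h1 y hy).2]
  have hgcon : ConicalOn g (Ω \ K) := fun x hx =>
    (hcon x hx).mono_set (conicalSetAt_of_mem_nhds (hK.mem_nhds hx)) sdiff_subset
  have hf : ContinuousOn (g ∘ annP c k r a b) PD :=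
    (hgc.mono sdiff_subset).comp (annP_continuous c k r a b).continuousOn hmaps
  have hi : InjOn (g ∘ annP c k r a b) PD :=
    (hginj.mono sdiff_subset).comp (annP_injOn c k ha hb hr) hmaps
  have hc : ConicalOn (g ∘ annP c k r a b) PD :=
    hgcon.comp (annP_conical c k r a b conicalSet_PD) hmaps
      (annP_continuous c k r a b).continuousOn
  have hA : ∀ p, (ConHomeo.ofCompact isCompact_PD (g ∘ annP c k r a b) hf hi hc rfl).toFun p =
      g (annP c k r a b p) := fun p => by rw [ConHomeo.ofCompact_toFun]; rfl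
  have hAi : ∀ S : Set (P2 × ℝ × ℝ),
      (ConHomeo.ofCompact isCompact_PD (g ∘ annP c k r a b) hf hi hc rfl).toFun '' S =
      g '' (annP c k r a b '' S) := by
    intro S
    rw [ConHomeo.ofCompact_toFun, image_comp]
  refine ⟨(g ∘ annP c k r a b) '' PD,
    ConHomeo.ofCompact isCompact_PD (g ∘ annP c k r a b) hf hi hc rfl, hA, fun p hp => hmaps hp,
    ?_, ?_, ?_, ?_, ?_⟩
  · rw [image_comp, himg]
  · rw [hAi, annP_image c k ha hb hr Ioo_subset_Icc_self]
    refine isOpen_image_homeo hΛ hg ?_ ?_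
    · refine (isOpen_Ioo.preimage ?_).inter (isOpen_Ioo.preimage ?_)
      · exact ((continuous_apply k).sub continuous_const).div_const _
      · exact (continuous_const.sub (rad_continuous c k)).div_const _
    · rintro x ⟨h1, h2⟩
      obtain ⟨h3, h4⟩ := hrad.1 (Ioo_subset_Icc_self h2)
      exact (hsub x (habs.1 (Ioo_subset_Icc_self h1)) h3 h4).1
  · intro θ hθ τ hτ t ht
    refine ⟨?_, rad_annP hb.le hr hθ (abs_le.2 ht)⟩
    rw [annP_same]
    show |c k + a * τ - c k| ≤ a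
    rw [add_sub_cancel_left, abs_mul, abs_of_pos ha]
    have : |τ| ≤ 1 := abs_le.2 hτ
    nlinarith
  · rw [hAi, annP_image c k ha hb hr (by simp)]
    congr 1
    ext x
    show _ ∧ _ ↔ _ ∧ _
    rw [hrad0, mem_singleton_iff, div_eq_zero_iff, or_iff_left ha.ne', sub_eq_zero]
    constructor
    · rintro ⟨h1, h2, h3⟩; exact ⟨⟨h1, h2⟩, h3⟩
    · rintro ⟨⟨h1, h2⟩, h3⟩; exact ⟨h1, h2, h3⟩
  · rw [hAi, annP_image c k ha hb hr (by simp)]
    congr 1
    ext x
    show _ ∧ _ ↔ _ ∧ _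
    rw [hrad0, habs']

end Vale.Agent.P073.RT.H339
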