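import Vale.Agent.P073.RT.H339.Ann

/-!
# P073 / RT / H339: row T2, disc replacement
-/

open Set Metric Topology Filter

namespace Vale.Agent.P073.RT.H339

open _root_.P073 _root_.P073.PA691 _root_.P073.PR720 Vale.Agent.P073.St
open Vale.Agent.P073.RT

/-- the parametrisation of the flat square -/
noncomputable def sqP (c : V) (k : Fin 3) (s : ℝ) (y : P2) : V :=
  Fin.insertNth (α := fun _ => ℝ) k (c k) (fun j => c (k.succAbove j) + s * y j)

theorem sqP_same (c : V) (k : Fin 3) (s : ℝ) (y : P2) : sqP c k s y k = c k := by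
  unfold sqP
  rw [Fin.insertNth_apply_same]

theorem sqP_succ (c : V) (k : Fin 3) (s : ℝ) (y : P2) (j : Fin 2) :
    sqP c k s y (k.succAbove j) = c (k.succAbove j) + s * y j := by
  unfold sqP
  rw [Fin.insertNth_apply_succAbove]

theorem sqP_continuous (c : V) (k : Fin 3) (s : ℝ) : Continuous (sqP c k s) := by
  refine continuous_pi fun l => ?_
  rcases Fin.eq_self_or_eq_succAbove k l with rfl | ⟨j, rfl⟩
  · simp only [sqP_same]
    exact continuous_const
  · simp only [sqP_succ]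
    exact continuous_const.add (continuous_const.mul (continuous_apply j))

theorem sqP_conical (c : V) (k : Fin 3) (s : ℝ) {X : Set P2} (hX : ConicalSet X) :
    ConicalOn (sqP c k s) X := by
  intro x hx
  refine conicalWithinAt_pi (hX x hx) fun l => ?_
  rcases Fin.eq_self_or_eq_succAbove k l with rfl | ⟨j, rfl⟩
  · simp only [sqP_same]
    exact conicalOn_const (c l) hX x hx
  · simp only [sqP_succ]
    let L : P2 →ₗ[ℝ] ℝ := LinearMap.proj j
    exact ((conicalOn_const (c (k.succAbove j)) hX).add ((conicalOn_linear L hX).const_smul s)) x hx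

theorem sqP_injective (c : V) (k : Fin 3) {s : ℝ} (hs : s ≠ 0) :
    Function.Injective (sqP c k s) := by
  intro y y' h
  funext j
  have h6 := congrFun h (k.succAbove j)
  rw [sqP_succ, sqP_succ] at h6
  exact mul_left_cancel₀ hs (add_left_cancel h6)

theorem rad_sqP (c : V) (k : Fin 3) {s : ℝ} (hs : 0 < s) (y : P2) :
    rad c k (sqP c k s y) = s * ‖y‖ := by
  unfold rad
  have : (fun j : Fin 2 => sqP c k s y (k.succAbove j) - c (k.succAbove j)) = s • y := by
    funext j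
    rw [sqP_succ]
    simp
  rw [this, norm_smul, Real.norm_of_nonneg hs.le]

theorem mem_dsk_iff {c : V} {k : Fin 3} {r : ℝ} (hr : 0 < r) {x : V} :
    x ∈ dsk c k r ↔ x k = c k ∧ rad c k x ≤ r := by
  rw [rad_le_iff hr.le]; rfl

theorem exists_sqP {c : V} {k : Fin 3} {s : ℝ} (hs : 0 < s) {x : V} (hx : x k = c k) :
    ∃ y : P2, sqP c k s y = x ∧ s * ‖y‖ = rad c k x := by
  have : sqP c k s (fun j => (x (k.succAbove j) - c (k.succAbove j)) / s) = x := by
    funext l
    rcases Fin.eq_self_or_eq_succAbove k l with rfl | ⟨j, rfl⟩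
    · rw [sqP_same, hx]
    · rw [sqP_succ]
      field_simp; ring
  exact ⟨_, this, by rw [← rad_sqP c k hs, this]⟩

/-- the boundary of the square -/
def bsk (c : V) (k : Fin 3) (r : ℝ) : Set V := {x ∈ dsk c k r | ∃ l, l ≠ k ∧ |x l - c l| = r}

theorem mem_bsk_iff {c : V} {k : Fin 3} {r : ℝ} (hr : 0 < r) {x : V} :
    x ∈ bsk c k r ↔ x k = c k ∧ rad c k x = r := by
  constructor
  · rintro ⟨h1, l, hl, hl'⟩
    obtain ⟨h2, h3⟩ := (mem_dsk_iff hr).1 h1
    exact ⟨h2, le_antisymm h3 ((le_rad_iff hr).2 ⟨l, hl, hl'.ge⟩)⟩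
  · rintro ⟨h1, h2⟩
    have h3 := (mem_dsk_iff hr).2 ⟨h1, h2.le⟩
    obtain ⟨l, hl, hl'⟩ := (le_rad_iff (c := c) (k := k) (x := x) hr).1 h2.ge
    exact ⟨h3, l, hl, le_antisymm (h3.2 l hl) hl'⟩

theorem conBall_dsk (c : V) (k : Fin 3) {r : ℝ} (hr : 0 < r) :
    ConBall 2 (dsk c k r) (bsk c k r) := by
  have hc : ConicalOn (sqP c k r) Q0 := sqP_conical c k r (convex_closedBall (0 : P2) 1).conicalSet
  let Φ : ConHomeo Q0 (sqP c k r '' Q0) := ConHomeo.ofCompact (isCompact_closedBall _ _)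
    (sqP c k r) (sqP_continuous c k r).continuousOn (sqP_injective c k hr.ne').injOn hc rfl
  have hstd : ConBall 2 Q0 S1 :=
    ⟨sphere_subset_closedBall, ConHomeo.refl (convex_closedBall (0 : P2) 1).conicalSet,
      image_id' _⟩
  have h1 := hstd.image Φ Subset.rfl
  have h2 : Φ.toFun = sqP c k r := ConHomeo.ofCompact_toFun _ _ _ _ _ _
  rw [h2] at h1
  have e1 : sqP c k r '' Q0 = dsk c k r := by
    ext x
    rw [mem_dsk_iff hr]
    constructor
    · rintro ⟨y, hy, rfl⟩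
      refine ⟨sqP_same c k r y, ?_⟩
      rw [rad_sqP c k hr]
      have : ‖y‖ ≤ 1 := mem_closedBall_zero_iff.1 hy
      nlinarith
    · rintro ⟨hx, hx'⟩
      obtain ⟨y, rfl, hy⟩ := exists_sqP hr hx
      refine ⟨y, mem_closedBall_zero_iff.2 ?_, rfl⟩
      rw [← hy] at hx'
      by_contra hlt
      nlinarith [not_le.1 hlt]
  have e2 : sqP c k r '' S1 = bsk c k r := by
    ext x
    rw [mem_bsk_iff hr]
    constructor
    · rintro ⟨y, hy, rfl⟩
      refine ⟨sqP_same c k r y, ?_⟩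
      rw [rad_sqP c k hr, mem_sphere_zero_iff_norm.1 hy, mul_one]
    · rintro ⟨hx, hx'⟩
      obtain ⟨y, rfl, hy⟩ := exists_sqP hr hx
      refine ⟨y, mem_sphere_zero_iff_norm.2 ?_, rfl⟩
      rw [← hy] at hx'
      exact mul_left_cancel₀ hr.ne' (by rw [hx', mul_one])
  rw [e1, e2] at h1
  exact h1

/-- uniform continuity at a compact subset of an open set -/
theorem exists_delta {Λ C : Set V} {h : V → V} (hΛ : IsOpen Λ) (hC : IsCompact C) (hCΛ : C ⊆ Λ)
    (hc : ContinuousOn h Λ) {ε : ℝ} (hε : 0 < ε) :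
    ∃ δ > 0, ∀ y ∈ C, ∀ w, ‖w - y‖ ≤ δ → ‖h w - h y‖ < ε := by
  have h1 := hC.uniformContinuousAt_of_continuousAt h
    (fun a ha => hc.continuousAt (hΛ.mem_nhds (hCΛ ha))) (Metric.dist_mem_uniformity hε)
  obtain ⟨δ, hδ, h2⟩ := Metric.mem_uniformity_dist.1 h1
  refine ⟨δ / 2, by linarith, fun y hy w hw => ?_⟩
  have h3 : dist y w < δ := by
    rw [dist_comm, dist_eq_norm]; linarith
  have h4 := h2 h3 hy
  have h5 : dist (h y) (h w) < ε := h4
  rwa [dist_comm, dist_eq_norm] at h5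

/-- **Row T2** from (DISC) -/
theorem specDR_of (hDisc : SpecDisc) : SpecDR := by
  intro Ω Λ K g c k r η hΩ hΛ hKΩ hK hg hcon happ hη hηr hplt hring
  have hr : 0 < r := by linarith
  obtain ⟨gi, ⟨hgi1, hgi2⟩, hgc, hgic⟩ := id hg
  have hginj : InjOn g Ω := by
    intro x hx y hy hxy
    rw [← (hgi1 x hx).2, hxy, (hgi1 y hy).2]
  -- the plates
  have hsubp : ∀ {x : V}, |x k - c k| ≤ η → rad c k x ≤ r + η → x ∈ plt c k (r + 2 * η) (2 * η) := by
    intro x h1 h2
    refine ⟨by linarith, fun l hl => ?_⟩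
    have := (rad_le_iff (by linarith : 0 ≤ r + η)).1 h2 l hl
    linarith
  have hsub : ∀ x : V, |x k - c k| ≤ η / 2 → (∀ l, l ≠ k → |x l - c l| ≤ r + η) →
      (∃ l, l ≠ k ∧ r - η ≤ |x l - c l|) → x ∈ Ω \ K := by
    rintro x h1 h2 ⟨l, hl, hl'⟩
    have h3 : x ∈ plt c k (r + 2 * η) (2 * η) :=
      hsubp (by linarith) ((rad_le_iff (by linarith)).2 h2)
    exact ⟨hplt h3, hring x h3 ⟨l, hl, by linarith⟩⟩
  obtain ⟨N, A, hA, hAdom, hN, hAo, hAval, hA0, hA1⟩ :=
    exists_annK (a := η / 2) (b := η) c k hΛ hK hg hcon (by linarith) hη (by linarith) hsub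
  have hploΩ : plo c k r η ⊆ Ω := fun x hx => hplt (hsubp hx.1.le
    ((rad_le_iff (by linarith)).2 fun l hl => by linarith [hx.2 l hl]))
  have hploo : IsOpen (plo c k r η) := by
    have : plo c k r η = {x | |x k - c k| < η} ∩ {x | rad c k x < r} := by
      ext x
      show _ ∧ _ ↔ _ ∧ _
      rw [mem_ofPred_eq, mem_ofPred_eq, rad_lt_iff hr]
    rw [this]
    exact (isOpen_lt (((continuous_apply k).sub continuous_const).abs) continuous_const).inter
      (isOpen_lt (rad_continuous c k) continuous_const)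
  have hpltc : IsClosed (plt c k r η) := by
    have : plt c k r η = {x | |x k - c k| ≤ η} ∩ {x | rad c k x ≤ r} := by
      ext x
      show _ ∧ _ ↔ _ ∧ _
      rw [mem_ofPred_eq, mem_ofPred_eq, rad_le_iff hr.le]
    rw [this]
    exact (isClosed_le (((continuous_apply k).sub continuous_const).abs) continuous_const).inter
      (isClosed_le (rad_continuous c k) continuous_const)
  set O : Set V := g '' plo c k r η with hO
  set I : Set V := g '' (Ω \ plt c k r η) with hI
  have hOo : IsOpen O := isOpen_image_homeo hΛ hg hploo hploΩ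
  have hIo : IsOpen I := isOpen_image_homeo hΛ hg (hΩ.sdiff hpltc) sdiff_subset
  have hOI : Disjoint O I := by
    rw [Set.disjoint_left]
    rintro _ ⟨x, hx, rfl⟩ ⟨x', hx', hxx⟩
    have : x' = x := hginj hx'.1 (hploΩ hx) hxx
    subst this
    exact hx'.2 ⟨hx.1.le, fun l hl => (hx.2 l hl).le⟩
  -- the approximation
  have hPΩ : ∀ y ∈ Q0, sqP c k (r + η) y ∈ Ω := by
    intro y hy
    have hy1 : ‖y‖ ≤ 1 := mem_closedBall_zero_iff.1 hy
    refine hplt (hsubp ?_ ?_)
    · rw [sqP_same, sub_self, abs_zero]; exact hη.le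
    · rw [rad_sqP c k (by linarith)]
      nlinarith
  have hCcomp : IsCompact (g '' (sqP c k (r + η) '' Q0)) :=
    ((isCompact_closedBall _ _).image (sqP_continuous c k _)).image_of_continuousOn
      (hgc.mono (by rintro _ ⟨y, hy, rfl⟩; exact hPΩ y hy))
  obtain ⟨δ, hδ, hδc⟩ := exists_delta hΛ hCcomp
    (by rintro _ ⟨_, ⟨y, hy, rfl⟩, rfl⟩; exact (hgi1 _ (hPΩ y hy)).1) hgic
    (by linarith : 0 < η / 4)
  obtain ⟨h₀, hh₀⟩ := happ δ hδ
  -- the point `x'`
  have hx' : ∀ y ∈ Q0, ∃ x' ∈ Ω, g x' = h₀.toFun (sqP c k (r + η) y) ∧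
      ∀ l, |x' l - sqP c k (r + η) y l| < η / 4 := by
    intro y hy
    have h1 := hPΩ y hy
    have h2 : h₀.toFun (sqP c k (r + η) y) ∈ Λ := h₀.mapsTo h1
    refine ⟨gi (h₀.toFun (sqP c k (r + η) y)), (hgi2 _ h2).1, (hgi2 _ h2).2, fun l => ?_⟩
    have h3 := hδc _ (mem_image_of_mem g (mem_image_of_mem _ hy)) _ (hh₀ _ h1)
    rw [(hgi1 _ h1).2] at h3
    exact lt_of_le_of_lt (norm_le_pi_norm
      (gi (h₀.toFun (sqP c k (r + η) y)) - sqP c k (r + η) y) l) h3
  have hcoord : ∀ {x' : V} {y : P2}, (∀ l, |x' l - sqP c k (r + η) y l| < η / 4) →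
      |x' k - c k| < η / 4 ∧ ∀ j : Fin 2, |x' (k.succAbove j) - c (k.succAbove j) -
        (r + η) * y j| < η / 4 := by
    intro x' y h
    refine ⟨?_, fun j => ?_⟩
    · have := h k; rwa [sqP_same] at this
    · have := h (k.succAbove j); rw [sqP_succ] at this
      rw [sub_sub]; exact this
  -- the disc
  have hQc : ConicalSet Q0 := (convex_closedBall (0 : P2) 1).conicalSet
  have hG1 : MapsTo (sqP c k (r + η)) Q0 Ω := fun y hy => hPΩ y hy
  have hrη : (r + η) ≠ 0 := by linarith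
  have hGcont : ContinuousOn (h₀.toFun ∘ sqP c k (r + η)) Q0 :=
    h₀.cont.comp (sqP_continuous c k _).continuousOn hG1
  have hGinj : InjOn (h₀.toFun ∘ sqP c k (r + η)) Q0 :=
    h₀.injOn.comp (sqP_injective c k hrη).injOn hG1
  have hGcon : ConicalOn (h₀.toFun ∘ sqP c k (r + η)) Q0 :=
    h₀.conical.comp (sqP_conical c k _ hQc) hG1 (sqP_continuous c k _).continuousOn
  let G : ConHomeo Q0 ((h₀.toFun ∘ sqP c k (r + η)) '' Q0) :=
    ConHomeo.ofCompact (isCompact_closedBall _ _) (h₀.toFun ∘ sqP c k (r + η)) hGcont hGinj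
      hGcon rfl
  have hGf : ∀ y, G.toFun y = h₀.toFun (sqP c k (r + η) y) := fun y => by
    show (ConHomeo.ofCompact (isCompact_closedBall _ _) (h₀.toFun ∘ sqP c k (r + η)) hGcont hGinj
      hGcon rfl).toFun y = _
    rw [ConHomeo.ofCompact_toFun]; rfl
  -- the circle
  set ρ : ℝ := r / (r + η) with hρ
  have hρ0 : 0 < ρ := div_pos hr (by linarith)
  have hρ1 : ρ < 1 := (div_lt_one (by linarith)).2 (by linarith)
  have hscon : ∀ {X : Set P2}, ConicalSet X → ConicalOn (fun y : P2 => ρ • y) X := fun hX =>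
    (conicalOn_id hX).const_smul ρ
  have hsinj : Function.Injective (fun y : P2 => ρ • y) := fun y y' h =>
    smul_right_injective P2 hρ0.ne' h
  let SC : ConHomeo Q0 ((fun y : P2 => ρ • y) '' Q0) :=
    ConHomeo.ofCompact (isCompact_closedBall _ _) (fun y : P2 => ρ • y)
      (continuous_const_smul ρ).continuousOn hsinj.injOn (hscon hQc) rfl
  have hSf : SC.toFun = fun y : P2 => ρ • y := ConHomeo.ofCompact_toFun _ _ _ _ _ _
  have hstd : ConBall 2 Q0 S1 :=
    ⟨sphere_subset_closedBall, ConHomeo.refl hQc, image_id' _⟩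
  have hΔ := hstd.image SC Subset.rfl
  have hz0 := SC.restr (conicalSet_sphere_pi 2) (sphere_subset_closedBall : S1 ⊆ Q0)
  let z : ConHomeo S1 (SC.toFun '' S1) :=
    SC.restr (conicalSet_sphere_pi 2) (sphere_subset_closedBall : S1 ⊆ Q0)
  have hzf : ∀ θ, z.toFun θ = ρ • θ := fun θ => by
    show SC.toFun θ = _
    rw [hSf]
  refine Exists.elim (hDisc O I N _ A G (SC.toFun '' S1) (SC.toFun '' Q0) z hOo hIo hOI
    hAo ?_ ?_ hΔ ?_ ?_ ?_ ?_ ?_ ?_ ?_ ?_) ?_
  · -- `t > 0`
    intro θ hθ τ hτ t ht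
    rw [hA]
    obtain ⟨h1, h2⟩ := hAval θ hθ τ hτ t ⟨by linarith [ht.1], ht.2⟩
    refine mem_image_of_mem g ⟨by linarith, ?_⟩
    rw [← rad_lt_iff hr, h2]
    nlinarith [ht.1]
  · -- `t < 0`
    intro θ hθ τ hτ t ht
    rw [hA]
    obtain ⟨h1, h2⟩ := hAval θ hθ τ hτ t ⟨ht.1, by linarith [ht.2]⟩
    refine mem_image_of_mem g ⟨(hAdom (θ, τ, t) ⟨hθ, hτ, ht.1, by linarith [ht.2]⟩).1, ?_⟩
    intro h3
    have h4 := (rad_le_iff (c := c) (k := k) hr.le).2 h3.2
    rw [h2] at h4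
    nlinarith [ht.2]
  · -- `Δ ⊆ ball`
    rw [hSf]
    rintro _ ⟨y, hy, rfl⟩
    have : ‖y‖ ≤ 1 := mem_closedBall_zero_iff.1 hy
    rw [mem_ball_zero_iff, norm_smul, Real.norm_of_nonneg hρ0.le]
    nlinarith [norm_nonneg y]
  · rw [hSf]
    exact ⟨0, mem_closedBall_self zero_le_one, smul_zero ρ⟩
  · rw [hSf]
    rintro ⟨y, hy, hy0⟩
    have h1 : y = 0 := by
      rcases smul_eq_zero.1 hy0 with h | h
      · exact absurd h hρ0.ne'
      · exact h
    have h2 := mem_sphere_zero_iff_norm.1 hy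
    rw [h1, norm_zero] at h2
    exact zero_ne_one h2
  · -- cover
    intro y hy
    obtain ⟨x', hxΩ, hgx, hx'⟩ := hx' y hy
    obtain ⟨hk, hj⟩ := hcoord hx'
    rw [hGf, ← hgx]
    by_cases h1 : x' ∈ plt c k r η
    · have h2 := (rad_le_iff (c := c) (k := k) hr.le).2 h1.2
      rcases h2.lt_or_eq with h3 | h3
      · exact Or.inl (Or.inl (mem_image_of_mem g ⟨by linarith, (rad_lt_iff hr).1 h3⟩))
      · refine Or.inr ?_
        rw [hA1]
        refine mem_image_of_mem g ⟨by linarith, h1.2, ?_⟩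
        obtain ⟨l, hl, hl'⟩ := (le_rad_iff (c := c) (k := k) (x := x') hr).1 h3.ge
        exact ⟨l, hl, le_antisymm (h1.2 l hl) hl'⟩
    · exact Or.inl (Or.inr (mem_image_of_mem g ⟨hxΩ, h1⟩))
  · -- segments
    intro y hy θ hθ τ hτ t ht hyt
    obtain ⟨x', hxΩ, hgx, hx'⟩ := hx' y hy
    obtain ⟨hk, hj⟩ := hcoord hx'
    rw [hGf, ← hgx, hA] at hyt
    have hxa : x' = annP c k r (η / 2) η (θ, τ, t) :=
      hginj hxΩ (hAdom (θ, τ, t) ⟨hθ, hτ, ht⟩).1 hyt
    constructor
    · rw [hxa, annP_same] at hk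
      simp only [add_sub_cancel_left] at hk
      rw [abs_mul, abs_of_pos (by linarith : 0 < η / 2)] at hk
      have : |τ| < 1 := by nlinarith
      exact abs_lt.1 this
    · obtain ⟨j, hj1⟩ := exists_norm_eq (mem_sphere_zero_iff_norm.1 hθ)
      have hj2 := hj j
      rw [hxa, annP_succ] at hj2
      simp only [add_sub_cancel_left] at hj2
      have ht1 : |t| ≤ 1 := abs_le.2 ht
      -- sign of the coordinate
      rintro ⟨α, β, hα, hβ, hαβ, hsum⟩
      have hs := congrFun hsum j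
      simp only [Pi.add_apply, Pi.smul_apply, smul_eq_mul, Pi.zero_apply, hzf] at hs
      have hbt : η * t ≤ η := by nlinarith [(abs_le.1 ht1).2]
      rcases (abs_eq zero_le_one).1 hj1 with h1 | h1
      · rw [h1, prof_one ht1] at hj2
        rw [h1] at hs
        have hy1 : 0 < y j := by
          have := (abs_lt.1 hj2).2
          by_contra hneg
          nlinarith [not_lt.1 hneg]
        rcases hα.lt_or_eq with h | h
        · nlinarith [mul_pos h hy1, mul_nonneg hβ hρ0.le]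
        · have hβ1 : β = 1 := by linarith
          rw [← h, hβ1] at hs
          linarith
      · rw [h1, prof_neg, prof_one ht1] at hj2
        rw [h1] at hs
        have hy1 : y j < 0 := by
          have := (abs_lt.1 hj2).1
          by_contra hneg
          nlinarith [not_lt.1 hneg]
        rcases hα.lt_or_eq with h | h
        · nlinarith [mul_pos h (neg_pos.2 hy1), mul_nonneg hβ hρ0.le]
        · have hβ1 : β = 1 := by linarith
          rw [← h, hβ1] at hs
          linarith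
  · -- centre in `O`
    obtain ⟨x', hxΩ, hgx, hx'⟩ := hx' 0 (mem_closedBall_self zero_le_one)
    obtain ⟨hk, hj⟩ := hcoord hx'
    rw [hGf, ← hgx]
    refine mem_image_of_mem g ⟨by linarith, fun l hl => ?_⟩
    obtain ⟨j, rfl⟩ := Fin.exists_succAbove_eq hl
    have := hj j
    rw [Pi.zero_apply, mul_zero, sub_zero] at this
    linarith
  · -- centre not in `N`
    obtain ⟨x', hxΩ, hgx, hx'⟩ := hx' 0 (mem_closedBall_self zero_le_one)
    obtain ⟨hk, hj⟩ := hcoord hx'
    rw [hGf, ← hgx, hN]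
    rintro ⟨x'', ⟨h1, h2, l, hl, hl'⟩, hgx'⟩
    have hx'' : x'' ∈ Ω := (hsub x'' h1 h2 ⟨l, hl, hl'⟩).1
    have : x'' = x' := hginj hx'' hxΩ hgx'
    subst this
    obtain ⟨j, rfl⟩ := Fin.exists_succAbove_eq hl
    have := hj j
    rw [Pi.zero_apply, mul_zero, sub_zero] at this
    linarith
  · -- boundary in `I`
    intro y hy
    obtain ⟨x', hxΩ, hgx, hx'⟩ := hx' y (sphere_subset_closedBall hy)
    obtain ⟨hk, hj⟩ := hcoord hx'
    rw [hGf, ← hgx]
    refine mem_image_of_mem g ⟨hxΩ, fun h1 => ?_⟩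
    obtain ⟨j, hj1⟩ := exists_norm_eq (mem_sphere_zero_iff_norm.1 hy)
    have h2 := h1.2 _ (Fin.succAbove_ne k j)
    have h3 := hj j
    rcases (abs_eq zero_le_one).1 hj1 with h | h
    · rw [h] at h3
      have := (abs_lt.1 h3).1
      have := (abs_le.1 h2).2
      linarith
    · rw [h] at h3
      have := (abs_lt.1 h3).2
      have := (abs_le.1 h2).1
      linarith
  · -- boundary values
    rintro D ⟨hD1, hD2, -, -⟩
    rw [hA0] at hD1 hD2
    have hbΩ : bsk c k r ⊆ Ω \ K := by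
      intro x hx
      obtain ⟨h1, h2⟩ := (mem_bsk_iff hr).1 hx
      obtain ⟨h3, l, hl, hl'⟩ := hx
      refine hsub x (by rw [h1, sub_self, abs_zero]; linarith) (fun l hl => ?_)
        ⟨l, hl, by rw [hl']; linarith⟩
      linarith [h3.2 l hl]
    have hbc : IsCompact (bsk c k r) := (conBall_dsk c k hr).isCompact_bdry
    have hbcon : ConicalSet (bsk c k r) := (conBall_dsk c k hr).conicalSet_bdry
    have hgcon : ConicalOn g (bsk c k r) := fun x hx =>
      (hcon x (hbΩ hx)).mono_set (hbcon x hx) (hbΩ.trans sdiff_subset)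
    let φ : ConHomeo (bsk c k r) (g '' bsk c k r) := ConHomeo.ofCompact hbc g
      (hgc.mono (hbΩ.trans sdiff_subset)) (hginj.mono (hbΩ.trans sdiff_subset)) hgcon rfl
    have hφ : φ.toFun = g := ConHomeo.ofCompact_toFun _ _ _ _ _ _
    have hD1' : ConBall 2 D (g '' bsk c k r) := hD1
    obtain ⟨e, he1, he2⟩ := (conBall_dsk c k hr).exists_extend hD1' φ
    refine ⟨D, e, ?_, ?_⟩
    · rintro x hx ⟨l, hl, hl'⟩
      have := he1 (show x ∈ bsk c k r from ⟨hx, l, hl, hl'⟩)
      rw [this, hφ]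
    · intro x hx hlt
      have hxD : e.toFun x ∈ D := e.mapsTo hx
      refine hD2 ⟨hxD, ?_⟩
      intro hmem
      have hmem' : e.toFun x ∈ g '' bsk c k r := hmem
      rw [← he2] at hmem'
      obtain ⟨x', hx', hxx'⟩ := hmem'
      have : x' = x := e.injOn ((conBall_dsk c k hr).1 hx') hx hxx'
      subst this
      obtain ⟨-, l, hl, hl'⟩ := hx'
      linarith [hlt l hl]

end Vale.Agent.P073.RT.H339
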